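import Vale.Agent.P121.Main

namespace Vale.Agent.Results.P121.NoMonge

open MeasureTheory Vale.Agent.P121

/-- Negative answer to Q1 of P121: an absolutely continuous probability measure on Euclidean
three-space with finite Kantorovich value and no optimal Monge plan. -/
theorem result : ∃ μ : Measure E, IsProbabilityMeasure μ ∧ μ ≪ volume ∧ kantorovich μ < ⊤ ∧
    ∀ T₂ T₃ : E → E, Measurable T₂ → Measurable T₃ → μ.map T₂ = μ → μ.map T₃ = μ →
      ∫⁻ x, coulomb x (T₂ x) (T₃ x) ∂μ ≠ kantorovich μ :=
  main

end Vale.Agent.Results.P121.NoMonge
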